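import Vale.Agent.P131.Op

/-! The operator with a transitive commutant. -/

namespace Vale.Agent.P131

open Filter Topology MeasureTheory Set
open scoped ENNReal InnerProductSpace ComplexConjugate

noncomputable section

lemma iter {α : UnitAddCircle} {κ : UnitAddCircle → ℤ → ℝ}
    (h : ∀ᵐ x, ∀ᶠ n in cofinite, κ x (n + 1) ≤ κ (x + α) n) (i : ℕ) :
    ∀ᵐ x, ∀ᶠ n in cofinite, κ x (n + i) ≤ κ (x + i • α) n := by
  induction i with
  | zero => simp
  | succ i ih =>
    filter_upwards [h, (measurePreserving_add_right volume α).quasiMeasurePreserving.ae ih]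
      with x h1 h2
    filter_upwards [(add_left_injective (i : ℤ)).tendsto_cofinite.eventually h1, h2] with n h3 h4
    rw [succ_nsmul', ← add_assoc]
    push_cast
    rw [← add_assoc]
    exact h3.trans h4

lemma ratio {α : UnitAddCircle} {κ : UnitAddCircle → ℤ → ℝ}
    (h : ∀ᵐ x, ∀ᶠ n in cofinite, κ x (n + 1) ≤ κ (x + α) n) (i : ℕ) :
    ∀ᵐ y, ∃ K : ℕ, ∀ n, bb (κ y n) ≤ K * bb (κ (y - i • α) (n + i)) := by
  filter_upwards [(measurePreserving_sub_right volume (i • α)).quasiMeasurePreserving.ae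
    (iter h i)] with y hy
  rw [sub_add_cancel, eventually_cofinite] at hy
  obtain ⟨K0, hK0⟩ := (hy.image fun n => bb (κ y n) / bb (κ (y - i • α) (n + i))).bddAbove
  obtain ⟨K, hK⟩ := exists_nat_ge (max 1 K0)
  refine ⟨K, fun n => ?_⟩
  rw [← div_le_iff₀ (bb_pos _)]
  by_cases hn : κ (y - i • α) (n + i) ≤ κ y n
  · exact ((div_le_one (bb_pos _)).2 (bb_anti hn)).trans ((le_max_left _ _).trans hK)
  · exact (hK0 ⟨n, hn, rfl⟩).trans ((le_max_right _ _).trans hK)

lemma overlap {α : UnitAddCircle} (hα : Ergodic (· + α) volume) {u v : UnitAddCircle → ℂ}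
    (hv : Measurable v) (N : ℕ) (h : ∀ i : ℕ, N ≤ i → ∀ᵐ y, u (y - i • α) ≠ 0 → v y = 0) :
    (∀ᵐ x, u x = 0) ∨ ∀ᵐ y, v y = 0 := by
  set U : Set UnitAddCircle := ⋃ i : ℕ, {x | v (x + (N + i) • α) ≠ 0} with hU
  have hUm : MeasurableSet U := .iUnion fun i =>
    (measurableSet_eq_fun (hv.comp (measurable_add_const _)) measurable_const).compl
  have hsub : (· + α) ⁻¹' U ⊆ U := by
    intro x hx
    obtain ⟨i, hi⟩ := mem_iUnion.1 hx
    refine mem_iUnion.2 ⟨i + 1, ?_⟩
    rwa [mem_ofPred_eq, ← add_assoc N, succ_nsmul', ← add_assoc]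
  rcases hα.ae_empty_or_univ_of_preimage_ae_le hUm.nullMeasurableSet hsub.eventuallyLE with h0 | h0
  · right
    filter_upwards [(measurePreserving_sub_right volume (N • α)).quasiMeasurePreserving.ae
      (ae_eq_empty.1 h0 |> measure_eq_zero_iff_ae_notMem.1)] with y hy
    by_contra hc
    exact hy (mem_iUnion.2 ⟨0, by simpa using hc⟩)
  · left
    have h' : ∀ i : ℕ, ∀ᵐ x, u x ≠ 0 → v (x + (N + i) • α) = 0 := fun i => by
      simpa using (measurePreserving_add_right volume ((N + i) • α)).quasiMeasurePreserving.ae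
        (h (N + i) (by omega))
    filter_upwards [ae_all_iff.2 h', ae_eq_univ.1 h0 |> measure_eq_zero_iff_ae_notMem.1]
      with x h1 h2
    by_contra hc
    obtain ⟨i, hi⟩ := mem_iUnion.1 (not_not.1 h2)
    exact hi (h1 i hc)

/-- The property of the counterexample. -/
def Good {H : Type*} [NormedAddCommGroup H] [InnerProductSpace ℂ H] (T : H →L[ℂ] H) : Prop :=
  (∀ c : ℂ, T ≠ c • ContinuousLinearMap.id ℂ H) ∧ ∀ M : Submodule ℂ H, IsClosed (M : Set H) →
    (∀ A : H →L[ℂ] H, A ∘L T = T ∘L A → ∀ x ∈ M, A x ∈ M) → M = ⊥ ∨ M = ⊤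

/-- The model space. -/
abbrev H0 : Type := Lp ℂ 2 ((volume : Measure UnitAddCircle).prod (.count : Measure ℤ))

theorem model : ∃ T : H0 →L[ℂ] H0, Good T := by
  obtain ⟨α, κ, hα, hκ, h1, h2, h3⟩ := exists_sys
  have : IsProbabilityMeasure (volume : Measure UnitAddCircle) := ⟨UnitAddCircle.measure_univ⟩
  obtain ⟨T, hT⟩ := exists_W (μ := volume) (b := fun x n => bb (κ x n))
    (fun n => bb_anti.measurable.comp (hκ n)) (fun _ _ => bb_pos _) (.id _) (-1) .univ zero_le_one
    fun y _ n => by simpa using bb_anti (pi_mono (h1 y) (by omega))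
  refine ⟨T, fun c hc => ?_, fun M hM hinv => ?_⟩
  · have hs : MeasurableSet ((univ : Set UnitAddCircle) ×ˢ ({0} : Set ℤ)) :=
      MeasurableSet.univ.prod (.singleton _)
    have hfin : ((volume : Measure UnitAddCircle).prod (.count : Measure ℤ)) (univ ×ˢ {0}) ≠ ∞ := by
      simp
    have e1 := indicatorConstLp_coeFn (p := 2) (hs := hs) (hμs := hfin) (c := (1 : ℂ))
    set f := indicatorConstLp 2 hs hfin (1 : ℂ)
    have e2 := hT f
    rw [hc] at e2
    have e3 : ∀ᵐ z ∂((volume : Measure UnitAddCircle).prod (.count : Measure ℤ)), z.2 ≠ 1 := by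
      filter_upwards [e1, e2, (mp_shift (.id volume) (-1)).quasiMeasurePreserving.ae e1,
        Lp.coeFn_smul c f] with z e1 e2 e3 e4 hz
      have e5 : (c • f) z = _ := e2
      rw [e4, Pi.smul_apply, e1, e3] at e5
      replace e5 := e5.symm
      simp [hz, (bb_pos _).ne'] at e5
    obtain ⟨y, hy⟩ := (Measure.ae_ae_of_ae_prod e3).exists
    exact Measure.ae_count_iff.1 hy 1 rfl
  · by_contra hcon
    push Not at hcon
    obtain ⟨f, hfM, hf⟩ := (Submodule.ne_bot_iff M).1 hcon.1
    have := hM.completeSpace_coe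
    obtain ⟨h, hhM, hh⟩ := (Submodule.ne_bot_iff Mᗮ).1 fun h =>
      hcon.2 (Submodule.orthogonal_eq_bot_iff.1 h)
    obtain ⟨n, hn⟩ := ex_ne hf
    obtain ⟨p, hp⟩ := ex_ne hh
    refine (overlap hα (u := fun x => f (x, n)) (v := fun y => h (y, p))
      ((Lp.stronglyMeasurable h).measurable.comp measurable_prodMk_right) ((n - p).toNat + 1)
      fun i hi => ?_).elim hn hp
    filter_upwards [key hκ h1 h2 hT (f := f) (h := h) (fun W hW =>
      Submodule.inner_left_of_mem_orthogonal (hinv W hW f hfM) hhM)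
      (measurePreserving_sub_right volume (i • α)) (ratio h3 i)] with y hy hu
    exact hy (n - i) p (by omega) (by simpa using hu)

lemma Good.infinite {H : Type*} [NormedAddCommGroup H] [InnerProductSpace ℂ H] {T : H →L[ℂ] H}
    (h : Good T) : ¬ FiniteDimensional ℂ H := by
  intro hfd
  rcases subsingleton_or_nontrivial H with hs | hs
  · exact h.1 0 (Subsingleton.elim _ _)
  obtain ⟨c, hc⟩ := Module.End.exists_eigenvalue (T : H →ₗ[ℂ] H)
  rcases h.2 (Module.End.eigenspace (T : H →ₗ[ℂ] H) c) (Submodule.closed_of_finiteDimensional _)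
    (fun A hA x hx => by
      rw [Module.End.mem_eigenspace_iff] at hx ⊢
      have : A (T x) = T (A x) := DFunLike.congr_fun hA x
      simp only [ContinuousLinearMap.coe_coe] at hx ⊢
      rw [← this, hx, map_smul]) with h0 | h0
  · exact hc h0
  · refine h.1 c (ContinuousLinearMap.ext fun x => ?_)
    exact Module.End.mem_eigenspace_iff.1 (h0 ▸ Submodule.mem_top (x := x))

lemma nat_basis (H : Type*) [NormedAddCommGroup H] [InnerProductSpace ℂ H] [CompleteSpace H]
    [TopologicalSpace.SeparableSpace H] (hH : ¬ FiniteDimensional ℂ H) :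
    Nonempty (HilbertBasis ℕ ℂ H) := by
  obtain ⟨w, b, -⟩ := exists_hilbertBasis ℂ H
  have hc : Countable w := by
    refine Pairwise.countable_of_isOpen_disjoint (s := fun i => Metric.ball (b i) (1 / 2))
      (fun i j hij => Metric.ball_disjoint_ball ?_) (fun _ => Metric.isOpen_ball)
      fun _ => Metric.nonempty_ball.2 (by norm_num)
    have e := norm_sub_sq (𝕜 := ℂ) (b i) (b j)
    rw [b.orthonormal.2 hij, b.orthonormal.1, b.orthonormal.1] at e
    rw [dist_eq_norm]
    simp only [map_zero] at e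
    nlinarith [norm_nonneg (b i - b j)]
  have hi : Infinite w := by
    by_contra hf
    have := not_infinite_iff_finite.1 hf
    have := Fintype.ofFinite w
    exact hH b.toOrthonormalBasis.toBasis.finiteDimensional_of_finite
  obtain ⟨e⟩ : Nonempty (ℕ ≃ w) := nonempty_equiv_of_countable
  refine ⟨HilbertBasis.mk (b.orthonormal.comp e e.injective) ?_⟩
  rw [e.surjective.range_comp, b.dense_span]

lemma Good.transfer {H H' : Type*} [NormedAddCommGroup H] [InnerProductSpace ℂ H]
    [NormedAddCommGroup H'] [InnerProductSpace ℂ H'] {T : H →L[ℂ] H} (h : Good T)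
    (e : H ≃L[ℂ] H') : Good ((e : H →L[ℂ] H') ∘L T ∘L (e.symm : H' →L[ℂ] H)) := by
  refine ⟨fun c hc => h.1 c (ContinuousLinearMap.ext fun x => e.injective ?_), fun M hM hinv => ?_⟩
  · simpa using DFunLike.congr_fun hc (e x)
  · rcases h.2 (M.comap (e.toLinearEquiv : H →ₗ[ℂ] H')) (hM.preimage e.continuous) (fun A hA x hx => by
      have := hinv ((e : H →L[ℂ] H') ∘L A ∘L (e.symm : H' →L[ℂ] H)) (by
        ext y
        simpa using DFunLike.congr_fun hA (e.symm y)) (e x) hx
      simpa using this) with h0 | h0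
    · refine .inl (eq_bot_iff.2 fun y hy => ?_)
      have : e.symm y ∈ (⊥ : Submodule ℂ H) := h0 ▸ by simpa using hy
      simpa using this
    · refine .inr (eq_top_iff.2 fun y _ => ?_)
      have : e.symm y ∈ M.comap (e.toLinearEquiv : H →ₗ[ℂ] H') := h0 ▸ Submodule.mem_top
      simpa using this

theorem main (H : Type*) [NormedAddCommGroup H] [InnerProductSpace ℂ H] [CompleteSpace H]
    [TopologicalSpace.SeparableSpace H] (hH : ¬ FiniteDimensional ℂ H) :
    ∃ T : H →L[ℂ] H, Good T := by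
  obtain ⟨T, hT⟩ := model
  have := isSeparable_of_sigmaFinite ((volume : Measure UnitAddCircle).prod (.count : Measure ℤ))
  have : Fact ((2 : ℝ≥0∞) ≠ ∞) := ⟨by simp⟩
  obtain ⟨b⟩ := nat_basis H hH
  obtain ⟨b0⟩ := nat_basis H0 hT.infinite
  exact ⟨_, hT.transfer (b0.repr.trans b.repr.symm).toContinuousLinearEquiv⟩

end

end Vale.Agent.P131
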