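import Vale.Agent.P131.Sys

/-! Weighted composition operators on the product of a probability space with the integers. -/

namespace Vale.Agent.P131

open Filter Topology MeasureTheory Set
open scoped ENNReal InnerProductSpace ComplexConjugate

noncomputable section

lemma exists_wc {Ω : Type*} [MeasurableSpace Ω] {ν : Measure Ω} {c : Ω → ℂ} (hc : Measurable c)
    {K : ℝ} (hK : ∀ z, ‖c z‖ ≤ K) {ψ : Ω → Ω} (hψ : MeasurePreserving ψ ν ν) :
    ∃ W : Lp ℂ 2 ν →L[ℂ] Lp ℂ 2 ν, ∀ f, W f =ᵐ[ν] fun z => c z * f (ψ z) := by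
  have hm : MemLp c ∞ ν := memLp_top_of_bound hc.aestronglyMeasurable K (.of_forall hK)
  refine ⟨((ContinuousLinearMap.mul ℂ ℂ).holderL ν ∞ 2 2 hm.toLp).comp
    (Lp.compMeasurePreservingₗᵢ ℂ ψ hψ).toContinuousLinearMap, fun f => ?_⟩
  have h1 := (ContinuousLinearMap.mul ℂ ℂ).coeFn_holder (r := 2) hm.toLp
    (Lp.compMeasurePreserving ψ hψ f)
  filter_upwards [h1, hm.coeFn_toLp, Lp.coeFn_compMeasurePreserving f hψ] with z h1 h2 h3
  refine h1.trans ?_
  rw [h2, h3]; rfl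

variable {X : Type*} [MeasurableSpace X] {μ : Measure X} [IsProbabilityMeasure μ]

lemma fib_sum {F : X × ℤ → ℂ} (hF : Integrable F (μ.prod .count)) :
    ∀ᵐ y ∂μ, Summable (fun n => ‖F (y, n)‖) ∧
      HasSum (fun n => F (y, n)) (∫ n, F (y, n) ∂.count) := by
  filter_upwards [hF.prod_right_ae] with y hy
  have hs := integrable_count_iff.1 hy
  refine ⟨hs, ?_⟩
  rw [integral_countable hy]
  simpa using hs.of_norm.hasSum

lemma fib_zero {F : X × ℤ → ℂ} (hF : Integrable F (μ.prod .count))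
    (h : ∀ G, MeasurableSet G → ∫ z in G ×ˢ univ, F z ∂(μ.prod .count) = 0) :
    ∀ᵐ y ∂μ, HasSum (fun n => F (y, n)) 0 := by
  have h0 := hF.integral_prod_left.ae_eq_zero_of_forall_setIntegral_eq_zero fun G hG _ => by
    have := setIntegral_prod (s := G) (t := univ) F hF.integrableOn
    rw [h G hG] at this
    simpa using this.symm
  filter_upwards [fib_sum hF, h0] with y h1 h2
  rw [show (∫ n, F (y, n) ∂.count) = 0 from h2] at h1
  exact h1.2

lemma fib_bdd (f : Lp ℂ 2 (μ.prod (.count : Measure ℤ))) :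
    ∀ᵐ y ∂μ, ∃ C, ∀ n, ‖f (y, n)‖ ≤ C := by
  filter_upwards [fib_sum (L2.integrable_inner (𝕜 := ℂ) f f)] with y hy
  refine ⟨1 + ∑' n, ‖⟪f (y, n), f (y, n)⟫_ℂ‖, fun n => ?_⟩
  have h1 := hy.1.le_tsum n fun _ _ => norm_nonneg _
  have h2 : ‖⟪f (y, n), f (y, n)⟫_ℂ‖ = ‖f (y, n)‖ ^ 2 := by
    rw [inner_self_eq_norm_sq_to_K]; simp
  nlinarith [norm_nonneg (f (y, n))]

omit [IsProbabilityMeasure μ] in
lemma ex_ne {f : Lp ℂ 2 (μ.prod (.count : Measure ℤ))} (hf : f ≠ 0) :
    ∃ n, ¬ ∀ᵐ x ∂μ, f (x, n) = 0 := by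
  by_contra hc
  push Not at hc
  apply hf
  refine Lp.ext ?_
  refine EventuallyEq.trans ?_ (Lp.coeFn_zero _ _ _).symm
  have hm : MeasurableSet {z | f z = (0 : X × ℤ → ℂ) z} :=
    measurableSet_eq_fun (Lp.stronglyMeasurable f).measurable measurable_zero
  refine (Measure.ae_prod_iff_ae_ae hm).2 ?_
  filter_upwards [ae_all_iff.2 hc] with x hx
  exact .of_forall hx

lemma mp_shift {θ : X → X} (hθ : MeasurePreserving θ μ μ) (k : ℤ) :
    MeasurePreserving (fun z : X × ℤ => (θ z.1, z.2 + k)) (μ.prod .count) (μ.prod .count) :=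
  hθ.prod (measurePreserving_add_right .count k)

/-- The weighted composition operator attached to a map, a shift and a set. -/
def IsW (μ : Measure X) (b : X → ℤ → ℝ) (θ : X → X) (k : ℤ) (G : Set X)
    (W : Lp ℂ 2 (μ.prod (.count : Measure ℤ)) →L[ℂ] Lp ℂ 2 (μ.prod (.count : Measure ℤ))) : Prop :=
  ∀ f, W f =ᵐ[μ.prod .count] fun z =>
    G.indicator (fun y => (b y z.2 : ℂ) / b (θ y) (z.2 + k)) z.1 * f (θ z.1, z.2 + k)

variable {b : X → ℤ → ℝ} (hb : ∀ n, Measurable (b · n)) (hp : ∀ x n, 0 < b x n)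

include hb hp in
lemma exists_W {θ : X → X} (hθ : MeasurePreserving θ μ μ) (k : ℤ) {G : Set X}
    (hG : MeasurableSet G) {K : ℝ} (hK0 : 0 ≤ K) (hK : ∀ y ∈ G, ∀ n, b y n ≤ K * b (θ y) (n + k)) :
    ∃ W, IsW μ b θ k G W := by
  refine exists_wc (K := K) ?_ (fun z => ?_) (mp_shift hθ k)
  · refine measurable_from_prod_countable_left fun n => ?_
    refine Measurable.indicator ?_ hG
    exact (Complex.measurable_ofReal.comp (hb n)).div
      (Complex.measurable_ofReal.comp ((hb (n + k)).comp hθ.measurable))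
  · by_cases hz : z.1 ∈ G
    · simp only [indicator_of_mem hz, norm_div, Complex.norm_real, Real.norm_eq_abs,
        abs_of_pos (hp _ _)]
      rw [div_le_iff₀ (hp _ _)]
      exact hK _ hz _
    · simpa [indicator_of_notMem hz] using hK0

include hp in
lemma IsW.comm {θ : X → X} (hθ : MeasurePreserving θ μ μ) {k : ℤ} {G : Set X} {W T}
    (hW : IsW μ b θ k G W) (hT : IsW μ b id (-1) univ T) : W ∘L T = T ∘L W := by
  ext1 f
  refine Lp.ext ?_
  filter_upwards [hW (T f), hT (W f), (mp_shift hθ k).quasiMeasurePreserving.ae (hT f),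
    (mp_shift (.id μ) (-1)).quasiMeasurePreserving.ae (hW f)] with z h1 h2 h3 h4
  simp only [ContinuousLinearMap.comp_apply]
  rw [h1, h2, h3, h4]
  have e : z.2 + k + -1 = z.2 + -1 + k := by ring
  by_cases hz : z.1 ∈ G
  · simp only [id, indicator_of_mem hz, indicator_univ, e]
    have h5 : ∀ x n, (b x n : ℂ) ≠ 0 := fun x n => by exact_mod_cast (hp x n).ne'
    field_simp [h5]
  · simp [indicator_of_notMem hz]

lemma key {κ : X → ℤ → ℝ} (hκ : ∀ n, Measurable (κ · n)) (h1 : ∀ x n, κ x n + 1 ≤ κ x (n + 1))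
    (h2 : ∀ x n, κ x (n + 1) ≤ κ x n + 2) {T} (hT : IsW μ (fun x n => bb (κ x n)) id (-1) univ T)
    {f h : Lp ℂ 2 (μ.prod (.count : Measure ℤ))}
    (H : ∀ W, W ∘L T = T ∘L W → ⟪h, W f⟫_ℂ = 0) {θ : X → X} (hθ : MeasurePreserving θ μ μ) {i : ℤ}
    (hi : ∀ᵐ y ∂μ, ∃ K : ℕ, ∀ n, bb (κ y n) ≤ K * bb (κ (θ y) (n + i))) :
    ∀ᵐ y ∂μ, ∀ m p, m < p → f (θ y, m + i) ≠ 0 → h (y, p) = 0 := by
  set b : X → ℤ → ℝ := fun x n => bb (κ x n) with hbd
  have hb : ∀ n, Measurable (b · n) := fun n => bb_anti.measurable.comp (hκ n)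
  have hp : ∀ x n, 0 < b x n := fun x n => bb_pos _
  have hne : ∀ x n, (b x n : ℂ) ≠ 0 := fun x n => by exact_mod_cast (hp x n).ne'
  set E : ℕ → Set X := fun K => {y | ∀ n, b y n ≤ K * b (θ y) (n + i)} with hE
  have hEm : ∀ K, MeasurableSet (E K) := fun K => by
    simp only [hE, ofPred_forall]
    exact .iInter fun n => measurableSet_le (hb n)
      (((hb (n + i)).comp hθ.measurable).const_mul _)
  have hW : ∀ (K j : ℕ) G, MeasurableSet G → ∃ W, IsW μ b θ (i - j) (G ∩ E K) W := by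
    intro K j G hG
    refine exists_W hb hp hθ _ (hG.inter (hEm K)) (Nat.cast_nonneg K) fun y hy n => ?_
    refine (hy.2 n).trans (mul_le_mul_of_nonneg_left ?_ (Nat.cast_nonneg K))
    exact bb_anti (pi_mono (h1 _) (by omega))
  have hS : ∀ K j : ℕ, ∀ᵐ y ∂μ, HasSum (fun n => conj (h (y, n)) *
      ((E K).indicator (fun y => (b y n : ℂ) / b (θ y) (n + (i - j))) y *
        f (θ y, n + (i - j)))) 0 := by
    intro K j
    obtain ⟨W, hW0⟩ := hW K j univ .univ
    rw [univ_inter] at hW0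
    refine fib_zero (F := fun z => conj (h z) *
      ((E K).indicator (fun y => (b y z.2 : ℂ) / b (θ y) (z.2 + (i - j))) z.1 *
        f (θ z.1, z.2 + (i - j)))) ?_ fun G hG => ?_
    · refine (L2.integrable_inner (𝕜 := ℂ) h (W f)).congr ?_
      filter_upwards [hW0 f] with z hz
      rw [hz]; simp [mul_comm]
    · obtain ⟨V, hV⟩ := hW K j G hG
      rw [← H V (hV.comm hp hθ hT), L2.inner_def, ← integral_indicator (hG.prod .univ)]
      refine integral_congr_ae ?_
      filter_upwards [hV f] with z hz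
      rw [hz]
      by_cases hz1 : z.1 ∈ G
      · rw [indicator_of_mem (show z ∈ G ×ˢ univ from ⟨hz1, trivial⟩)]
        by_cases hz2 : z.1 ∈ E K
        · rw [indicator_of_mem hz2, indicator_of_mem (show z.1 ∈ G ∩ E K from ⟨hz1, hz2⟩)]
          simp [mul_comm]
        · rw [indicator_of_notMem hz2, indicator_of_notMem fun h : z.1 ∈ G ∩ E K => hz2 h.2]
          simp
      · rw [indicator_of_notMem fun h : z ∈ G ×ˢ univ => hz1 h.1,
          indicator_of_notMem fun h : z.1 ∈ G ∩ E K => hz1 h.1]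
        simp
  filter_upwards [hi, ae_all_iff.2 fun K => ae_all_iff.2 (hS K), fib_bdd h,
    hθ.quasiMeasurePreserving.ae (fib_bdd f)] with y ⟨K, hK⟩ hy ⟨C, hC⟩ ⟨D, hD⟩ m p hmp hf
  have := uni (κ := κ y) (h1 y) (h2 y) (φ := fun n => f (θ y, n + i) / b (θ y) (n + i))
    (ψ := fun n => conj (h (y, n)) * b y n) (C := D * K) (C' := C) (fun n => ?_) (fun n => ?_)
    (fun j => ?_) (div_ne_zero hf (hne _ _)) hmp
  · simpa [hne] using this
  · simp only [norm_div, Complex.norm_real, Real.norm_eq_abs, abs_of_pos (hp _ _)]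
    rw [div_mul_eq_mul_div, div_le_iff₀ (hp _ _), mul_assoc]
    exact mul_le_mul (hD _) (hK n) (bb_pos _).le ((norm_nonneg _).trans (hD 0))
  · simp only [norm_mul, Complex.norm_conj, Complex.norm_real, Real.norm_eq_abs,
      abs_of_pos (hp _ _)]
    exact mul_le_mul_of_nonneg_right (hC n) (bb_pos _).le
  · have h3 := (Equiv.addRight (j : ℤ)).hasSum_iff.2 (hy K j)
    refine h3.congr_fun fun n => ?_
    have e : n + j + (i - j) = n + i := by ring
    simp only [Function.comp, Equiv.coe_addRight, indicator_of_mem (show y ∈ E K from hK), e]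
    ring

end

end Vale.Agent.P131
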