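import Vale.Agent.P131.Uni

/-! A measurable family of index maps over an irrational rotation. -/

namespace Vale.Agent.P131

open Filter Topology MeasureTheory Set

noncomputable section

/-- the representative in the unit interval -/
def rep (y : UnitAddCircle) : ℝ := (AddCircle.equivIco 1 0 y : ℝ)

lemma rep_mem (y : UnitAddCircle) : rep y ∈ Ico (0 : ℝ) 1 := by
  simpa [rep] using (AddCircle.equivIco 1 0 y).2

lemma coe_rep (y : UnitAddCircle) : ((rep y : ℝ) : UnitAddCircle) = y :=
  (AddCircle.equivIco 1 0).symm_apply_apply y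

lemma rep_coe {t : ℝ} (h : t ∈ Ico (0 : ℝ) 1) : rep (t : UnitAddCircle) = t := by
  rw [rep, AddCircle.equivIco_coe_eq (by simpa using h)]

lemma measurable_rep : Measurable rep :=
  measurable_subtype_coe.comp (AddCircle.measurableEquivIco 1 0).measurable

lemma exists_level {α : UnitAddCircle} (hα : addOrderOf α = 0) {ε : ℝ} (hε : 0 < ε) :
    ∃ (r : UnitAddCircle → ℝ) (Q : ℝ) (W : Set UnitAddCircle), Measurable r ∧ (∀ x, |r x| ≤ Q) ∧
      volume W ≤ ENNReal.ofReal ε ∧ ∀ x, x ∉ W → r (x + α) = r x + 2 := by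
  obtain ⟨q, d, hd, hq⟩ := (AddCircle.denseRange_zsmul_iff.2 hα).exists_mem_open
    (QuotientAddGroup.isOpenMap_coe _ (isOpen_Ioo (a := (0 : ℝ)) (b := min 1 (ε / 2))))
    (Set.Nonempty.image _ (nonempty_Ioo.2 (by positivity)))
  have d0 := hd.1
  have d1 := hd.2.trans_le (min_le_left _ _)
  have d2 := hd.2.trans_le (min_le_right _ _)
  have hq0 : q ≠ 0 := by
    rintro rfl
    have := rep_coe ⟨d0.le, d1⟩
    rw [hq, zero_smul, ← QuotientAddGroup.mk_zero, rep_coe (by simp)] at this
    exact d0.ne this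
  have mp := Measure.measurePreserving_zsmul (volume : Measure UnitAddCircle) hq0
  refine ⟨fun x => 2 * rep (q • x) / d, 2 / d, (fun x => q • x) ⁻¹' Metric.closedBall 0 d,
    ((measurable_rep.comp mp.measurable).const_mul 2).div_const d, fun x => ?_, ?_, fun x hx => ?_⟩
  · have := rep_mem (q • x)
    rw [abs_of_nonneg (by have := this.1; positivity)]
    exact div_le_div_of_nonneg_right (by linarith [this.2]) d0.le
  · rw [mp.measure_preimage measurableSet_closedBall.nullMeasurableSet, AddCircle.volume_closedBall]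
    exact ENNReal.ofReal_le_ofReal ((min_le_right _ _).trans (by linarith))
  · have m := rep_mem (q • x)
    have h1 : rep (q • x) + d < 1 := by
      by_contra h1
      refine hx ?_
      rw [mem_preimage, mem_closedBall_zero_iff, ← coe_rep (q • x),
        ← AddCircle.coe_add_period 1, ← sub_add_cancel (rep (q • x)) 1, AddCircle.coe_add_period,
        AddCircle.coe_add_period]
      refine QuotientAddGroup.norm_mk_le_norm.trans ?_
      rw [Real.norm_eq_abs, abs_le]
      constructor <;> linarith [m.2]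
    have h2 : rep (q • (x + α)) = rep (q • x) + d := by
      rw [← rep_coe (t := rep (q • x) + d) ⟨by linarith [m.1], h1⟩, smul_add, ← hq,
        QuotientAddGroup.mk_add, coe_rep]
    simp only [h2]
    field_simp

/-- slow interpolation between the levels -/
def itp (L : ℕ → ℝ) (r : ℕ → ℝ) (m : ℕ) : ℝ :=
  r 0 + ∑ k ∈ Finset.range m, min 1 (((m : ℝ) - k) / L k) * (r (k + 1) - r k)

lemma itp_step {Q r : ℕ → ℝ} (h : ∀ k, |r k| ≤ Q k) (m : ℕ) :
    |itp (fun k => 2 ^ (k + 2) * (Q k + Q (k + 1) + 1)) r (m + 1)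
      - itp (fun k => 2 ^ (k + 2) * (Q k + Q (k + 1) + 1)) r m| ≤ 1 / 2 := by
  have hQ : ∀ k, 0 ≤ Q k := fun k => (abs_nonneg _).trans (h k)
  set L : ℕ → ℝ := fun k => 2 ^ (k + 2) * (Q k + Q (k + 1) + 1) with hL
  have e : itp L r m = r 0 + ∑ k ∈ Finset.range (m + 1),
      min 1 (((m : ℝ) - k) / L k) * (r (k + 1) - r k) := by
    rw [itp, Finset.sum_range_succ]; simp
  rw [e, itp, add_sub_add_left_eq_sub, ← Finset.sum_sub_distrib]
  refine (Finset.abs_sum_le_sum_abs _ _).trans ?_
  calc _ ≤ ∑ k ∈ Finset.range (m + 1), 1 / 4 * (1 / 2 : ℝ) ^ k := by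
        refine Finset.sum_le_sum fun k _ => ?_
        have := hQ k
        have := hQ (k + 1)
        have hk : 0 < L k := by positivity
        rw [← sub_mul, abs_mul]
        have a1 : |min 1 ((((m + 1 : ℕ) : ℝ) - k) / L k) - min 1 (((m : ℝ) - k) / L k)|
            ≤ 1 / L k := by
          refine (abs_min_sub_min_le_max _ _ _ _).trans (max_le (by simp [hk.le]) ?_)
          rw [← sub_div, abs_div, abs_of_pos hk]
          push_cast
          simp
        have a2 : |r (k + 1) - r k| ≤ Q k + Q (k + 1) + 1 := by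
          linarith [abs_sub (r (k + 1)) (r k), h k, h (k + 1)]
        calc _ ≤ 1 / L k * (Q k + Q (k + 1) + 1) := by gcongr
          _ = _ := by simp only [hL, one_div, inv_pow]; field_simp; ring
    _ ≤ 1 / 4 * 2 := by
      rw [← Finset.mul_sum]
      gcongr
      exact sum_geometric_two_le _
    _ = 1 / 2 := by norm_num

lemma itp_shift {L r r' : ℕ → ℝ} (hL : ∀ k, 0 < L k) (h : ∀ᶠ k in atTop, r' k = r k + 2) :
    ∀ᶠ m in atTop, itp L r' m = itp L r m + 2 := by
  obtain ⟨k₀, hk⟩ := eventually_atTop.1 h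
  have : ∀ᶠ m : ℕ in atTop, ∀ k ∈ Finset.range k₀, L k + k ≤ m :=
    (eventually_all_finset _).2 fun k _ => tendsto_natCast_atTop_atTop.eventually_ge_atTop _
  filter_upwards [this, eventually_ge_atTop k₀] with m h1 h2
  have e := Finset.sum_range_sub (fun k => r' k - r k) m
  have e2 : ∀ k ∈ Finset.range m, min 1 (((m : ℝ) - k) / L k) * (r' (k + 1) - r' k)
      = min 1 (((m : ℝ) - k) / L k) * (r (k + 1) - r k)
        + (r' (k + 1) - r (k + 1) - (r' k - r k)) := fun k _ => by
    rcases lt_or_ge k k₀ with h3 | h3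
    · rw [min_eq_left (by
        rw [le_div_iff₀ (hL k)]; linarith [h1 k (Finset.mem_range.2 h3)])]
      ring
    · rw [hk k h3, hk (k + 1) (by omega)]; ring
  rw [itp, itp, Finset.sum_congr rfl e2, Finset.sum_add_distrib, e, hk m h2]
  ring

lemma exists_sys : ∃ (α : UnitAddCircle) (κ : UnitAddCircle → ℤ → ℝ),
    Ergodic (· + α) volume ∧ (∀ n, Measurable (κ · n)) ∧ (∀ x n, κ x n + 1 ≤ κ x (n + 1)) ∧
    (∀ x n, κ x (n + 1) ≤ κ x n + 2) ∧ ∀ᵐ x, ∀ᶠ n in cofinite, κ x (n + 1) ≤ κ (x + α) n := by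
  have hα : addOrderOf ((√2 : ℝ) : UnitAddCircle) = 0 :=
    AddCircle.denseRange_zsmul_iff.1 (AddCircle.denseRange_zsmul_coe_iff.2
      (by simpa using irrational_sqrt_two))
  choose r Q W mr hQ hW hr using fun k : ℕ => exists_level hα (ε := (1 / 2) ^ k) (by positivity)
  set L : ℕ → ℝ := fun k => 2 ^ (k + 2) * (Q k + Q (k + 1) + 1) with hL
  have st : ∀ x (n : ℤ),
      |itp L (r · x) (n + 1).natAbs - itp L (r · x) n.natAbs| ≤ 1 / 2 := fun x n => by
    rcases le_or_gt 0 n with h | h
    · rw [show (n + 1).natAbs = n.natAbs + 1 by omega]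
      exact itp_step (hQ · x) _
    · rw [show n.natAbs = (n + 1).natAbs + 1 by omega, abs_sub_comm]
      exact itp_step (hQ · x) _
  have s2 : ∀ x (n : ℤ), 3 / 2 * ((n + 1 : ℤ) : ℝ) + itp L (r · x) (n + 1).natAbs
      ≤ 3 / 2 * (n : ℝ) + itp L (r · x) n.natAbs + 2 := fun x n => by
    push_cast; linarith [(abs_le.1 (st x n)).2]
  refine ⟨_, fun x n => 3 / 2 * n + itp L (r · x) n.natAbs, AddCircle.ergodic_add_right.2 hα,
    fun n => ?_, fun x n => ?_, s2, ?_⟩
  · unfold itp
    fun_prop
  · push_cast; linarith [(abs_le.1 (st x n)).1]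
  · have : ∀ᵐ x, ∀ᶠ k in atTop, x ∉ W k := by
      refine ae_eventually_notMem (ne_top_of_le_ne_top ?_ (ENNReal.tsum_le_tsum hW))
      rw [← ENNReal.ofReal_tsum_of_nonneg (fun _ => by positivity) summable_geometric_two]
      exact ENNReal.ofReal_ne_top
    filter_upwards [this] with x hx
    obtain ⟨m₀, hm⟩ := eventually_atTop.1 (itp_shift (L := L) (r := (r · x))
      (r' := (r · (x + (√2 : ℝ)))) (fun k => by
        have := (abs_nonneg _).trans (hQ k 0)
        have := (abs_nonneg _).trans (hQ (k + 1) 0)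
        positivity) (hx.mono fun k hk => hr k x hk))
    refine eventually_cofinite.2 ((Set.finite_Icc (-m₀ : ℤ) m₀).subset fun n hn => ?_)
    by_contra h
    refine hn ?_
    rw [hm n.natAbs (by rw [mem_Icc] at h; omega), ← add_assoc]
    exact s2 x n

end

end Vale.Agent.P131
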