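import Mathlib

/-! Unicellularity of a family of bilateral weighted shifts. -/

namespace Vale.Agent.P131

open Real Filter Topology

noncomputable section

/-- a tower -/
def tw : ℕ → ℕ
  | 0 => 1
  | k + 1 => 20 ^ tw k

lemma tw_pos (k : ℕ) : 0 < tw k := by cases k <;> simp [tw]

lemma sq_le_pow (y : ℕ) : y * y + y ≤ 20 ^ y := by
  induction y with
  | zero => simp
  | succ y ih =>
    have := Nat.lt_pow_self (n := y) (show 1 < 20 by norm_num)
    rw [pow_succ]; nlinarith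

lemma tw_succ (k : ℕ) : 2 * tw k ≤ tw (k + 1) := by
  have := sq_le_pow (tw k)
  have := tw_pos k
  rw [tw]; nlinarith

lemma tw_add (t s : ℕ) : (s + 1) * tw t ≤ tw (t + s) := by
  induction s with
  | zero => simp
  | succ s ih =>
    have := tw_succ (t + s)
    rw [← add_assoc]; nlinarith [tw_pos t]

lemma tw_mono : Monotone tw := monotone_nat_of_le_succ fun k => by have := tw_succ k; omega

lemma lt_tw (k : ℕ) : k < tw k := by simpa [tw] using tw_add 0 k

/-- the growth on the left -/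
def EE (t : ℝ) : ℝ := tw (2 * ⌈-t⌉₊)

/-- the universal weight -/
def bb (t : ℝ) : ℝ := exp (EE t - 4 ^ t)

lemma EE_anti : Antitone EE := fun s t h => by
  unfold EE
  exact_mod_cast tw_mono (by gcongr)

lemma EE_pos (t : ℝ) : 0 < EE t := by unfold EE; exact_mod_cast tw_pos _

lemma bb_pos (t : ℝ) : 0 < bb t := exp_pos _

lemma bb_anti : Antitone bb := fun s t h => by
  unfold bb
  gcongr
  · exact EE_anti h
  · norm_num

lemma EE_grow {s t : ℝ} {M : ℕ} (h : s + (M + 1) ≤ t) (ht : 1 < EE t) : (M + 2) * EE t ≤ EE s := by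
  have h0 : 0 ≤ -t := by
    by_contra h0
    rw [EE, Nat.ceil_eq_zero.2 (by linarith)] at ht
    simp [tw] at ht
  have h1 : ⌈-t⌉₊ + (M + 1) ≤ ⌈-s⌉₊ := by
    rw [← Nat.ceil_add_natCast h0]
    exact Nat.ceil_mono (by push_cast; linarith)
  have h2 := (tw_add (2 * ⌈-t⌉₊) (M + 1)).trans
    (tw_mono (show 2 * ⌈-t⌉₊ + (M + 1) ≤ 2 * ⌈-s⌉₊ by omega))
  unfold EE
  exact_mod_cast h2

lemma geo {F : ℤ → ℂ} (h : HasSum F 0) {A : ℝ} (hA : 0 ≤ A)
    (hF : ∀ i : ℤ, i ≠ 0 → ‖F i‖ ≤ A * (1 / 2) ^ i.natAbs) : ‖F 0‖ ≤ 4 * A := by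
  have g : HasSum (fun i : ℤ => A * (1 / 2 : ℝ) ^ i.natAbs) (A * (2 + 1)) := by
    refine HasSum.mul_left A (HasSum.of_nat_of_neg_add_one ?_ ?_)
    · simpa using hasSum_geometric_two
    · have := hasSum_geometric_two.mul_left (1 / 2)
      convert this using 1
      · funext n
        rw [show (-((n : ℤ) + 1)).natAbs = n + 1 by omega, pow_succ']
      · norm_num
  have h2 : HasSum (Function.update F 0 0) (0 - F 0 + 0) := h.update 0 0
  have := h2.norm_le_of_bounded g fun i => by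
    by_cases hi : i = 0
    · subst hi; simpa using hA
    · rw [Function.update_of_ne hi]; exact hF i hi
  simp only [zero_sub, add_zero, norm_neg] at this
  linarith

section
variable {κ : ℤ → ℝ} (h1 : ∀ n, κ n + 1 ≤ κ (n + 1)) (h2 : ∀ n, κ (n + 1) ≤ κ n + 2)

include h1 in
lemma pi_lo (n : ℤ) (d : ℕ) : κ n + d ≤ κ (n + d) := by
  induction d with
  | zero => simp
  | succ d ih => have := h1 (n + d); push_cast; rw [← add_assoc n]; linarith

include h2 in
lemma pi_hi (n : ℤ) (d : ℕ) : κ (n + d) ≤ κ n + 2 * d := by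
  induction d with
  | zero => simp
  | succ d ih => have := h2 (n + d); push_cast; rw [← add_assoc n]; linarith

include h1 in
lemma pi_mono : Monotone κ := monotone_int_of_le_succ fun n => by linarith [h1 n]

include h1 in
lemma x_quarter {m q : ℤ} (h : m < q) : (4 : ℝ) ^ κ m ≤ 4 ^ κ q / 4 := by
  have := (h1 m).trans (pi_mono h1 (show m + 1 ≤ q by omega))
  rw [le_div_iff₀ (by norm_num), ← rpow_add_one (by norm_num)]
  gcongr
  norm_num

/-- `M` maximizes the tilted modulus -/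
def IsTop (φ : ℤ → ℂ) (σ : ℝ) (M : ℕ) : Prop :=
  ∀ N : ℕ, ‖φ (-N)‖ * exp (σ * N) ≤ ‖φ (-M)‖ * exp (σ * M)

variable {φ ψ : ℤ → ℂ} {C : ℝ} (hC : 1 ≤ C) (hφ : ∀ n, ‖φ n‖ * bb (κ n) ≤ C)
  (hψ : ∀ n, ‖ψ n‖ ≤ C * bb (κ n)) (h0 : φ 0 = 1)

include hφ in
lemma phi_le (n : ℤ) : ‖φ n‖ ≤ C * exp (4 ^ κ n - EE (κ n)) := by
  have := hφ n
  rw [← le_div_iff₀ (bb_pos _), bb, div_eq_mul_inv, ← exp_neg, neg_sub] at this
  exact this

include h1 hC hφ in
lemma small : ∃ c : ℕ, ∀ k k₀ M : ℕ, k ≤ M + k₀ → c + k₀ ≤ M →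
    ‖φ (-M)‖ * exp (tw k * M) < 1 := by
  obtain ⟨K, hK⟩ := exists_nat_gt (log C + 4 ^ κ 0)
  refine ⟨2 * ⌈κ 0⌉₊ + 1 + K, fun k k₀ M hk hM => ?_⟩
  have e1 : κ (-M) + M ≤ κ 0 := by simpa using pi_lo h1 (-M) M
  have e2 : M ≤ ⌈-κ (-M)⌉₊ + ⌈κ 0⌉₊ := by
    have := Nat.le_ceil (-κ (-M))
    have := Nat.le_ceil (κ 0)
    have : (M : ℝ) ≤ ⌈-κ (-M)⌉₊ + ⌈κ 0⌉₊ := by linarith
    exact_mod_cast this
  have e3 : tw k * M + K ≤ tw (2 * ⌈-κ (-M)⌉₊) := by
    have a1 := tw_mono (show M + k₀ + 1 ≤ 2 * ⌈-κ (-M)⌉₊ by omega)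
    have a2 := sq_le_pow (tw (M + k₀))
    have a3 := lt_tw (M + k₀)
    have a4 := tw_mono hk
    rw [tw] at a1
    have : tw k * M ≤ tw (M + k₀) * tw (M + k₀) := Nat.mul_le_mul a4 (by omega)
    omega
  have e4 : (tw k : ℝ) * M + K ≤ EE (κ (-M)) := by unfold EE; exact_mod_cast e3
  have e5 : (4 : ℝ) ^ κ (-M) ≤ 4 ^ κ 0 := by
    gcongr
    · norm_num
    · exact pi_mono h1 (by omega)
  calc ‖φ (-M)‖ * exp (tw k * M) ≤ exp (log C) * exp (4 ^ κ (-M) - EE (κ (-M))) * exp (tw k * M) := by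
        rw [exp_log (by linarith)]
        gcongr
        exact phi_le hφ _
    _ < 1 := by
      rw [← exp_add, ← exp_add, exp_lt_one_iff]
      linarith

include h1 hC hφ h0 in
lemma exists_good (k₁ : ℕ) : ∃ k, k₁ ≤ k ∧ ∃ M, IsTop φ (tw k) M ∧ IsTop φ (tw (k + 1)) M := by
  obtain ⟨c, hc⟩ := small h1 hC hφ
  have ex : ∀ k, ∃ M, IsTop φ (tw k) M := fun k => by
    obtain ⟨M, -, hM⟩ := (Finset.range (c + k + 1)).exists_max_image
      (fun N : ℕ => ‖φ (-N)‖ * exp (tw k * N)) ⟨0, by simp⟩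
    refine ⟨M, fun N => ?_⟩
    by_cases hN : N < c + k + 1
    · exact hM N (Finset.mem_range.2 hN)
    · have := hM 0 (by simp)
      simp only [Nat.cast_zero, neg_zero, h0, norm_one, mul_zero, exp_zero, mul_one] at this
      exact (hc k k N (by omega) (by omega)).le.trans this
  choose M hM using ex
  by_contra hc'
  push Not at hc'
  have st : ∀ k, k₁ ≤ k → M k < M (k + 1) := fun k hk => by
    by_contra hlt
    refine hc' k hk (M k) (hM k) fun N => (hM (k + 1) N).trans ?_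
    have hle : ((M (k + 1) : ℕ) : ℝ) ≤ M k := by exact_mod_cast not_lt.1 hlt
    have ht : (tw k : ℝ) ≤ tw (k + 1) := by exact_mod_cast tw_mono (Nat.le_succ k)
    have e : ∀ N : ℕ, exp (tw (k + 1) * N) = exp (tw k * N) * exp ((tw (k + 1) - tw k) * N) :=
      fun N => by rw [← exp_add]; congr 1; ring
    rw [e, e (M k), ← mul_assoc, ← mul_assoc]
    gcongr ?_ * exp ?_
    · exact hM k _
    · gcongr
  have gr : ∀ d, d ≤ M (k₁ + d) := fun d => by
    induction d with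
    | zero => simp
    | succ d ih => have := st (k₁ + d) (by omega); rw [← add_assoc]; omega
  have a := hc (k₁ + (c + k₁)) k₁ _ (by have := gr (c + k₁); omega) (gr (c + k₁))
  have b := hM (k₁ + (c + k₁)) 0
  simp only [Nat.cast_zero, neg_zero, h0, norm_one, mul_zero, exp_zero, mul_one] at b
  linarith

include hC hφ h0 in
lemma right_bd {σ : ℝ} (hσ : 0 ≤ σ) {M : ℕ} (hM : IsTop φ σ M) (i : ℕ) :
    ‖φ (-M + i)‖ ≤ ‖φ (-M)‖ * (C * exp (σ * i + 4 ^ κ (-M + i))) := by
  have hx : (0 : ℝ) < 4 ^ κ (-M + i) := by positivity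
  rcases le_total i M with h | h
  · obtain ⟨N, rfl⟩ := Nat.exists_eq_add_of_le h
    have := hM N
    rw [show (-((i + N : ℕ) : ℤ) + i) = -N by push_cast; ring] at *
    push_cast at this
    rw [mul_add, exp_add, ← mul_assoc] at this
    refine (le_of_mul_le_mul_right this (exp_pos _)).trans ?_
    push_cast
    gcongr
    calc exp (σ * i) ≤ exp (σ * i + 4 ^ κ (-N)) := by gcongr; linarith
      _ ≤ _ := le_mul_of_one_le_left (exp_pos _).le hC
  · have a := hM 0
    simp only [Nat.cast_zero, neg_zero, h0, norm_one, mul_zero, exp_zero, mul_one] at a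
    have hi : (M : ℝ) ≤ i := by exact_mod_cast h
    calc ‖φ (-M + i)‖ ≤ 1 * (C * exp (4 ^ κ (-M + i))) := by
          rw [one_mul]
          refine (phi_le hφ _).trans ?_
          gcongr
          linarith [EE_pos (κ (-M + i))]
      _ ≤ (‖φ (-M)‖ * exp (σ * i)) * (C * exp (4 ^ κ (-M + i))) := by
        gcongr
        exact a.trans (by gcongr)
      _ = _ := by rw [exp_add]; ring

include h1 hC hφ h0 in
lemma left_bd {σ σ' : ℝ} (hσ : 1 ≤ σ) (hσ' : 2 * σ ≤ σ') {M : ℕ} (hM : IsTop φ σ M)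
    (hM' : IsTop φ σ' M) {i : ℕ} (hi : 1 ≤ i) :
    ‖φ (-M - i)‖ * exp (EE (κ (1 - i))) ≤ ‖φ (-M)‖ * (C * exp (4 ^ κ 0 - σ' * i / 2)) := by
  have hx : (0 : ℝ) < 4 ^ κ 0 := by positivity
  have hi' : (1 : ℝ) ≤ i := by exact_mod_cast hi
  rcases le_or_gt (EE (κ (1 - i))) (σ' * i / 2) with h | h
  · have := hM' (M + i)
    push_cast at this
    rw [mul_add, exp_add, mul_comm (exp _), ← mul_assoc, neg_add, ← sub_eq_add_neg] at this
    have t := le_of_mul_le_mul_right this (exp_pos _)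
    rw [← le_div_iff₀ (exp_pos _), div_eq_mul_inv, ← exp_neg] at t
    calc _ ≤ ‖φ (-M)‖ * exp (-(σ' * i)) * exp (σ' * i / 2) := by gcongr
      _ = ‖φ (-M)‖ * (1 * exp (-(σ' * i) + σ' * i / 2)) := by rw [exp_add]; ring
      _ ≤ _ := by gcongr; linarith
  · have a := hM 0
    simp only [Nat.cast_zero, neg_zero, h0, norm_one, mul_zero, exp_zero, mul_one] at a
    have hE : σ < EE (κ (1 - i)) := by nlinarith
    have g := EE_grow (M := M) (s := κ (-M - i)) (t := κ (1 - i)) (by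
      have := pi_lo h1 (-M - i) (M + 1)
      push_cast at this
      rwa [show -(M : ℤ) - i + (M + 1) = 1 - i by ring] at this) (by linarith)
    have e5 : (4 : ℝ) ^ κ (-M - i) ≤ 4 ^ κ 0 := by
      gcongr
      · norm_num
      · exact pi_mono h1 (by omega)
    have hM0 : (0 : ℝ) ≤ M := by positivity
    calc _ ≤ (‖φ (-M)‖ * exp (σ * M)) * (C * exp (4 ^ κ (-M - i) - EE (κ (-M - i))))
          * exp (EE (κ (1 - i))) := by
          gcongr
          exact (phi_le hφ _).trans (le_mul_of_one_le_left (by positivity) a)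
      _ = ‖φ (-M)‖ * (C * exp (σ * M + (4 ^ κ (-M - i) - EE (κ (-M - i))) + EE (κ (1 - i)))) := by
        rw [exp_add, exp_add]; ring
      _ ≤ _ := by
        gcongr
        nlinarith

lemma exp_neg_le (i : ℕ) : exp (-(i : ℝ)) ≤ (1 / 2) ^ i := by
  rw [exp_neg, ← mul_one (i : ℝ), exp_nat_mul, ← inv_pow, one_div]
  gcongr
  linarith [add_one_le_exp (1 : ℝ)]

include h1 h2 hC hφ hψ h0 in
lemma main_bd (H : ∀ j : ℕ, HasSum (fun n => φ n * ψ (n + j)) 0) {D : ℕ} {σ' : ℝ} (hD : 1 ≤ D)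
    (c1 : 16 * C ≤ exp D) (c2 : ∀ q : ℕ, D < q → EE (κ 0) + 3 * q ^ 2 + 2 * q ≤ 4 ^ κ 0 * 4 ^ q / 2)
    (c3 : EE (κ 0) + 4 ^ κ 0 + 4 ^ κ 0 * 16 ^ D + 2 * D ^ 2 + D + 1 ≤ σ' / 2) {M : ℕ}
    (hM : IsTop φ D M) (hM' : IsTop φ σ' M) {p : ℕ} (hp : 1 ≤ p) (hpD : p ≤ D) :
    ‖ψ p‖ ≤ 8 * (C ^ 2 * exp (-D)) := by
  have hD' : (1 : ℝ) ≤ D := by exact_mod_cast hD
  have hx0 : (0 : ℝ) < 4 ^ κ 0 := by positivity
  have hE0 := EE_pos (κ 0)
  have ha : 0 < ‖φ (-M)‖ := by
    have a := hM 0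
    simp only [Nat.cast_zero, neg_zero, h0, norm_one, mul_zero, exp_zero, mul_one] at a
    by_contra h
    rw [le_antisymm (not_lt.1 h) (norm_nonneg _)] at a
    linarith
  set η : ℕ → ℝ := fun p => ‖ψ p‖ * exp (4 ^ κ p + 2 * D * p) with hη
  obtain ⟨r, hr, hmax⟩ := (Finset.Icc 1 D).exists_max_image η ⟨1, by simpa using hD⟩
  rw [Finset.mem_Icc] at hr
  have hr1 : (1 : ℝ) ≤ r := by exact_mod_cast hr.1
  have hrD : (r : ℝ) ≤ D := by exact_mod_cast hr.2
  have hη0 : 0 ≤ η r := by positivity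
  have hs : HasSum (fun i : ℤ => φ (-M + i) * ψ (r + i) * exp (4 ^ κ r + 2 * D * r)) 0 := by
    have := ((Equiv.addLeft (-M : ℤ)).hasSum_iff.2 (H (r + M))).mul_right
      ((exp (4 ^ κ r + 2 * D * r) : ℝ) : ℂ)
    rw [zero_mul] at this
    refine this.congr_fun ?_
    intro i
    simp only [Function.comp, Equiv.coe_addLeft]
    rw [show -(M : ℤ) + i + ((r + M : ℕ) : ℤ) = r + i by push_cast; ring]
  have key := geo hs (A := ‖φ (-M)‖ * (η r / 8 + C ^ 2 * exp (-D))) (by positivity) (by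
    intro i hi
    rw [norm_mul, norm_mul, Complex.norm_real, norm_of_nonneg (exp_pos _).le, mul_assoc ‖φ (-M)‖]
    rcases lt_or_gt_of_ne hi with hi | hi
    · obtain ⟨i, rfl⟩ : ∃ j : ℕ, i = -j := ⟨i.natAbs, by omega⟩
      have hi1 : 1 ≤ i := by omega
      have hi' : (1 : ℝ) ≤ i := by exact_mod_cast hi1
      have l := left_bd h1 hC hφ h0 hD' (by nlinarith [pow_pos (show (0 : ℝ) < 16 by norm_num) D])
        hM hM' hi1
      have l2 : ‖ψ (r + -i)‖ ≤ C * exp (EE (κ (1 - i))) := by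
        refine (hψ _).trans ?_
        unfold bb
        gcongr
        have := EE_anti (pi_mono h1 (show (1 : ℤ) - i ≤ r + -i by omega))
        have : (0 : ℝ) < 4 ^ κ (r + -i) := by positivity
        linarith
      have l3 : (4 : ℝ) ^ κ r ≤ 4 ^ κ 0 * 16 ^ D := by
        have := pi_hi h2 0 r
        rw [zero_add] at this
        rw [show (16 : ℝ) = 4 ^ 2 by norm_num, ← pow_mul, ← rpow_natCast, ← rpow_add (by norm_num)]
        gcongr
        · norm_num
        · push_cast; linarith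
      rw [Int.natAbs_neg, Int.natAbs_natCast, ← sub_eq_add_neg (-M : ℤ)]
      calc _ ≤ ‖φ (-M - i)‖ * (C * exp (EE (κ (1 - i)))) * exp (4 ^ κ r + 2 * D * r) := by gcongr
        _ = ‖φ (-M - i)‖ * exp (EE (κ (1 - i))) * (C * exp (4 ^ κ r + 2 * D * r)) := by ring
        _ ≤ ‖φ (-M)‖ * (C * exp (4 ^ κ 0 - σ' * i / 2)) * (C * exp (4 ^ κ r + 2 * D * r)) := by
          gcongr
        _ = ‖φ (-M)‖ * (C ^ 2 * exp (4 ^ κ 0 - σ' * i / 2 + (4 ^ κ r + 2 * D * r))) := by
          rw [exp_add _ (_ + _)]; ring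
        _ ≤ ‖φ (-M)‖ * (C ^ 2 * exp (-D + -i)) := by
          gcongr _ * (_ * exp ?_)
          have : (σ' / 2 - 1) * 1 ≤ (σ' / 2 - 1) * i := by
            gcongr
            nlinarith [pow_pos (show (0 : ℝ) < 16 by norm_num) D]
          nlinarith
        _ ≤ ‖φ (-M)‖ * ((0 + C ^ 2 * exp (-D)) * (1 / 2) ^ i) := by
          rw [exp_add, zero_add, mul_assoc (C ^ 2)]
          gcongr
          exact exp_neg_le i
        _ ≤ _ := by gcongr; positivity
    · obtain ⟨i, rfl⟩ : ∃ j : ℕ, i = j := ⟨i.natAbs, by omega⟩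
      have hi1 : 1 ≤ i := by omega
      have hi' : (1 : ℝ) ≤ i := by exact_mod_cast hi1
      have l := right_bd hC hφ h0 (by linarith) hM i
      have x1 := x_quarter h1 (show -(M : ℤ) + i < r + i by omega)
      have x2 := x_quarter h1 (show (r : ℤ) < r + i by omega)
      have xp : (0 : ℝ) < 4 ^ κ (r + i) := by positivity
      rw [Int.natAbs_natCast]
      calc _ ≤ ‖φ (-M)‖ * (C * exp (D * i + 4 ^ κ (-M + i))) * ‖ψ (r + i)‖
            * exp (4 ^ κ r + 2 * D * r) := by gcongr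
        _ = ‖φ (-M)‖ * (C * ‖ψ (r + i)‖
            * exp (D * i + 4 ^ κ (-M + i) + (4 ^ κ r + 2 * D * r))) := by
          rw [exp_add _ (_ + _)]; ring
        _ ≤ ‖φ (-M)‖ * (C * ‖ψ (r + i)‖ * exp (4 ^ κ (r + i) / 2 + D * i + 2 * D * r)) := by
          gcongr _ * (_ * exp ?_); linarith
        _ ≤ _ := by
          gcongr _ * ?_
          rcases le_or_gt (r + i) D with hq | hq
          · have m := hmax (r + i) (Finset.mem_Icc.2 ⟨by omega, hq⟩)
            have e : C * exp (-(D * i)) ≤ 1 / 8 * (1 / 2) ^ i := by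
              obtain ⟨j, rfl⟩ := Nat.exists_eq_add_of_le' hi1
              have e1 : exp (-(D * (j : ℝ))) ≤ (1 / 2) ^ j := by
                refine le_trans ?_ (exp_neg_le j)
                gcongr
                exact le_mul_of_one_le_left (by positivity) hD'
              have e2 : C * exp (-(D : ℝ)) ≤ 1 / 16 := by
                rw [exp_neg, ← div_eq_mul_inv, div_le_div_iff₀ (exp_pos _) (by norm_num)]
                linarith
              push_cast
              rw [mul_add, mul_one, neg_add, exp_add, pow_succ]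
              nlinarith [exp_pos (-(D * (j : ℝ))), exp_pos (-(D : ℝ))]
            calc _ ≤ C * ‖ψ (r + i)‖ * exp (4 ^ κ (r + i) + 2 * D * (r + i) + -(D * i)) := by
                  gcongr _ * exp ?_; linarith
              _ = η (r + i) * (C * exp (-(D * i))) := by
                simp only [hη]; push_cast; rw [exp_add]; ring
              _ ≤ η r * (1 / 8 * (1 / 2) ^ i) := by gcongr
              _ = (η r / 8 + 0) * (1 / 2) ^ i := by ring
              _ ≤ _ := by gcongr; positivity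
          · have m := c2 (r + i) hq
            have hq' : (D : ℝ) < r + i := by exact_mod_cast hq
            have x3 : (4 : ℝ) ^ κ 0 * 4 ^ (r + i) ≤ 4 ^ κ (r + i) := by
              have := pi_lo h1 0 (r + i)
              rw [← rpow_natCast, ← rpow_add (by norm_num)]
              gcongr
              · norm_num
              · simpa using this
            have l2 : ‖ψ (r + i)‖ ≤ C * exp (EE (κ 0) - 4 ^ κ (r + i)) := by
              refine (hψ _).trans ?_
              unfold bb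
              gcongr
              exact EE_anti (pi_mono h1 (by omega))
            push_cast at m
            calc _ ≤ C * (C * exp (EE (κ 0) - 4 ^ κ (r + i)))
                  * exp (4 ^ κ (r + i) / 2 + D * i + 2 * D * r) := by gcongr
              _ = C ^ 2 * exp (EE (κ 0) - 4 ^ κ (r + i)
                  + (4 ^ κ (r + i) / 2 + D * i + 2 * D * r)) := by rw [exp_add _ (_ + _)]; ring
              _ ≤ C ^ 2 * exp (-D + -i) := by gcongr _ * exp ?_; nlinarith
              _ ≤ (0 + C ^ 2 * exp (-D)) * (1 / 2) ^ i := by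
                rw [exp_add, zero_add, mul_assoc (C ^ 2)]
                gcongr
                exact exp_neg_le i
              _ ≤ _ := by gcongr; positivity)
  rw [norm_mul, norm_mul, Complex.norm_real, norm_of_nonneg (exp_pos _).le, add_zero, add_zero,
    mul_assoc, mul_left_comm 4] at key
  have k2 : η r ≤ 4 * (η r / 8 + C ^ 2 * exp (-D)) := le_of_mul_le_mul_left key ha
  have k3 : ‖ψ p‖ ≤ η p := le_mul_of_one_le_right (norm_nonneg _) (one_le_exp (by positivity))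
  have := hmax p (Finset.mem_Icc.2 ⟨hp, hpD⟩)
  linarith

include h1 h2 hC hφ hψ h0 in
lemma uni0 (H : ∀ j : ℕ, HasSum (fun n => φ n * ψ (n + j)) 0) {p : ℕ} (hp : 1 ≤ p) :
    ψ p = 0 := by
  have hx0 : (0 : ℝ) < 4 ^ κ 0 := by positivity
  have hE0 := EE_pos (κ 0)
  have t1 : ∀ᶠ q : ℕ in atTop, EE (κ 0) + 3 * q ^ 2 + 2 * q ≤ 4 ^ κ 0 * 4 ^ q / 2 := by
    have := (tendsto_pow_const_div_const_pow_of_one_lt 2 (show (1 : ℝ) < 4 by norm_num)).eventually
      (ge_mem_nhds (show (0 : ℝ) < 4 ^ κ 0 / 2 / (EE (κ 0) + 5) by positivity))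
    filter_upwards [this, eventually_ge_atTop 1] with q hq hq1
    have : (1 : ℝ) ≤ q := by exact_mod_cast hq1
    rw [div_le_div_iff₀ (by positivity) (by positivity)] at hq
    have : (q : ℝ) ≤ q ^ 2 := by nlinarith
    nlinarith
  have t2 : ∀ᶠ D : ℕ in atTop,
      EE (κ 0) + 4 ^ κ 0 + 4 ^ κ 0 * 16 ^ D + 2 * D ^ 2 + D + 1 ≤ (20 : ℝ) ^ D / 2 := by
    have := (tendsto_pow_atTop_atTop_of_one_lt (show (1 : ℝ) < 20 / 16 by norm_num)).eventually
      (eventually_ge_atTop (2 * (EE (κ 0) + 2 * 4 ^ κ 0 + 4)))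
    filter_upwards [this] with D hD
    rw [div_pow, le_div_iff₀ (by positivity)] at hD
    have a1 : (1 : ℝ) ≤ 16 ^ D := one_le_pow₀ (by norm_num)
    have a2 : (D : ℝ) ≤ 4 ^ D := by exact_mod_cast (Nat.lt_pow_self (by norm_num)).le
    have a3 : (16 : ℝ) ^ D = 4 ^ D * 4 ^ D := by rw [← mul_pow]; norm_num
    have a4 : (D : ℝ) ^ 2 ≤ 16 ^ D := by rw [a3, sq]; gcongr
    have a5 : (D : ℝ) ≤ 16 ^ D := a2.trans (by gcongr; norm_num)
    nlinarith
  have t3 : ∀ᶠ D : ℕ in atTop, 16 * C ≤ exp D :=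
    (tendsto_exp_atTop.comp tendsto_natCast_atTop_atTop).eventually (eventually_ge_atTop _)
  have t4 : Tendsto (fun D : ℕ => 8 * (C ^ 2 * exp (-D))) atTop (𝓝 0) := by
    simpa using ((tendsto_exp_neg_atTop_nhds_zero.comp
      tendsto_natCast_atTop_atTop).const_mul (C ^ 2)).const_mul 8
  refine norm_le_zero_iff.1 (le_of_forall_pos_le_add fun ε hε => ?_)
  obtain ⟨k₁, hk₁⟩ := eventually_atTop.1
    (((t1.and t2).and t3).and ((t4.eventually (ge_mem_nhds hε)).and (eventually_ge_atTop p)))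
  obtain ⟨k, hk, M, a, b⟩ := exists_good h1 hC hφ h0 k₁
  have hk' : k₁ ≤ tw k := hk.trans (lt_tw k).le
  obtain ⟨⟨⟨-, u2⟩, u3⟩, u4, u5⟩ := hk₁ _ hk'
  rw [zero_add]
  refine (main_bd h1 h2 hC hφ hψ h0 H (tw_pos k) u3 (fun q hq => (hk₁ q (by omega)).1.1.1)
    (σ' := tw (k + 1)) (by rw [tw]; push_cast; exact u2) a b hp u5).trans u4

end

theorem uni {κ : ℤ → ℝ} (h1 : ∀ n, κ n + 1 ≤ κ (n + 1)) (h2 : ∀ n, κ (n + 1) ≤ κ n + 2)
    {φ ψ : ℤ → ℂ} {C C' : ℝ} (hφ : ∀ n, ‖φ n‖ * bb (κ n) ≤ C) (hψ : ∀ n, ‖ψ n‖ ≤ C' * bb (κ n))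
    (H : ∀ j : ℕ, HasSum (fun n => φ n * ψ (n + j)) 0) {m p : ℤ} (hm : φ m ≠ 0) (hp : m < p) :
    ψ p = 0 := by
  obtain ⟨d, rfl⟩ : ∃ d : ℕ, p = m + d := ⟨(p - m).natAbs, by omega⟩
  have hn := norm_pos_iff.2 hm
  refine uni0 (κ := fun n => κ (m + n)) (φ := fun n => φ (m + n) / φ m) (ψ := fun n => ψ (m + n))
    (C := max 1 (max (C / ‖φ m‖) C')) (fun n => by rw [← add_assoc]; exact h1 _)
    (fun n => by rw [← add_assoc]; exact h2 _) (le_max_left _ _) (fun n => ?_) (fun n => ?_)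
    (by simp [hm]) (fun j => ?_) (by omega)
  · refine le_max_of_le_right (le_max_of_le_left ?_)
    rw [norm_div, div_mul_eq_mul_div]
    gcongr
    exact hφ _
  · refine (hψ _).trans ?_
    gcongr
    · exact (bb_pos _).le
    · exact le_max_of_le_right (le_max_right _ _)
  · have := ((Equiv.addLeft m).hasSum_iff.2 (H j)).div_const (φ m)
    rw [zero_div] at this
    refine this.congr_fun ?_
    intro n
    simp only [Function.comp, Equiv.coe_addLeft, add_assoc]
    ring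

end

end Vale.Agent.P131
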